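import Vale.Agent.P192.H437.Wob
import Vale.Agent.P192.H437.Free

namespace Vale.Agent.Results.P192.CoarseBoundaries

open Vale.Agent.P192.H437

theorem result (G : Type) [Group G] [Group.IsFinitelyPresented G] (hG : IsMulTorsion G) :
    (∀ S : Set G, S.Finite → Subgroup.closure S = ⊤ → ∃ R : ℕ,
      ∀ (X : Type) [MulAction G X] (C : Set X),
        (∀ x ∈ C, ∀ y ∈ C, linked S 1 C x y) → (∀ x ∉ C, ∀ y ∉ C, linked S 1 Cᶜ x y) →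
        ∀ x ∈ {x | x ∈ C ∧ ∃ s ∈ S, s • x ∉ C ∨ s⁻¹ • x ∉ C},
        ∀ y ∈ {x | x ∈ C ∧ ∃ s ∈ S, s • x ∉ C ∨ s⁻¹ • x ∉ C},
          linked S R {x | x ∈ C ∧ ∃ s ∈ S, s • x ∉ C ∨ s⁻¹ • x ∉ C} x y) ∧
    (∀ S : Set G, Subgroup.closure S = ⊤ → ∃ R m : ℕ,
      ∀ (X : Type) [MulAction G X] [MulAction.IsPretransitive G X] (C : ℕ → Set X) (L k : ℕ),
        (C 0).Nonempty → C L ≠ Set.univ →
        (∀ i < L, ∀ x ∈ C i, x ∈ C (i + 1) ∧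
          ∀ s ∈ S, s • x ∈ C (i + 1) ∧ s⁻¹ • x ∈ C (i + 1)) →
        {i | i ≤ L ∧ ∀ x ∈ {x | x ∈ C i ∧ ∃ s ∈ S, s • x ∉ C i ∨ s⁻¹ • x ∉ C i},
          {y | linked S R {x | x ∈ C i ∧ ∃ s ∈ S, s • x ∉ C i ∨ s⁻¹ • x ∉ C i} x y}.encard ≤
            k}.encard ≤ (((k + 2) ^ (m * k) : ℕ) : ℕ∞)) ∧
    (∀ S : Set G, Subgroup.closure S = ⊤ → ∃ R m : ℕ,
      ∀ (X : Type) [MulAction G X] [MulAction.IsPretransitive G X]
        (U : Set X) (x : X) (n K : ℕ),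
        (∀ y, hop S n x y → {z | mono S R U y z}.encard ≤ K) →
        (∃ y, ¬ hop S n x y) → n < (K + 2) ^ (m * K)) ∧
    (∀ S : Set G, Subgroup.closure S = ⊤ → ∃ R : ℕ, ∀ M : ℕ,
      ∃ N : Subgroup G, N.Normal ∧ N.FiniteIndex ∧
        ∀ (X : Type) [MulAction G X] (U : Set X),
          (∀ x, {z | mono S R U x z}.encard ≤ M) → ∀ g ∈ N, ∀ x : X, g • x = x) ∧
    (∀ S : Set G, Subgroup.closure S = ⊤ → ∀ c : ℕ, ∃ r : ℕ, ∀ M : ℕ,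
      ∃ N : Subgroup G, N.Normal ∧ N.FiniteIndex ∧
        ∀ (X : Type) (Γ : SimpleGraph X) (U : Set X),
          (∀ x, {y | Relation.ReflTransGen
            (fun a b => (a ∈ U ↔ b ∈ U) ∧ Γ.edist a b ≤ r) x y}.encard ≤ M) →
          ∀ ρ : G →* Equiv.Perm X, (∀ s ∈ S, ∀ x : X, Γ.edist x (ρ s x) ≤ c) →
            ∀ g ∈ N, ρ g = 1) ∧
    (∀ (X : Type) (Γ : SimpleGraph X) (Δ : ℕ), (∀ x : X, (Γ.neighborSet x).encard ≤ Δ) →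
      (∀ r : ℕ, ∃ D : ℕ, ∃ U : Set X, ∀ x y : X,
        Relation.ReflTransGen (fun a b => (a ∈ U ↔ b ∈ U) ∧ Γ.edist a b ≤ r) x y →
          Γ.edist x y ≤ D) →
      ∀ ρ : G →* Equiv.Perm X, (∀ g : G, ∃ c : ℕ, ∀ x : X, Γ.edist x (ρ g x) ≤ c) →
        Finite ρ.range) ∧
    (∀ (X : Type) (Γ : SimpleGraph X) (Δ : ℕ), (∀ x : X, (Γ.neighborSet x).encard ≤ Δ) →
      ∀ F : ℕ → Set X,
      (∀ i, ∀ x ∈ F i, x ∈ F (i + 1) ∧ ∀ y, Γ.Adj x y → y ∈ F (i + 1)) →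
      (∀ r : ℕ, ∃ b : ℕ → ℕ, ((fun i : ℕ => (b i : ℝ)) =o[Filter.atTop]
          fun i : ℕ => Real.log i / Real.log (Real.log i)) ∧
        ∀ i, ∀ x ∈ {y | y ∈ F i ∧ ∃ z, Γ.Adj y z ∧ z ∉ F i},
          {y | Relation.ReflTransGen (fun a c => a ∈ {y | y ∈ F i ∧ ∃ z, Γ.Adj y z ∧ z ∉ F i} ∧
            c ∈ {y | y ∈ F i ∧ ∃ z, Γ.Adj y z ∧ z ∉ F i} ∧ Γ.edist a c ≤ r) x y}.encard ≤ b i) →
      ∀ ρ : G →* Equiv.Perm X, (∀ g : G, ∃ c : ℕ, ∀ x : X, Γ.edist x (ρ g x) ≤ c) →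
        ∀ x : X, (∃ i, x ∈ F i) → ∃ j, ∀ g : G, ρ g x ∈ F j) ∧
    (∀ (F : Type) [Group F],
      (∀ E : Set F, E.Finite → ∃ M : ℕ, ∃ U : Set F, ∀ x : F,
        {y | Relation.ReflTransGen (fun a b => (a ∈ U ↔ b ∈ U) ∧ ∃ e ∈ E, b = e * a) x y}.encard ≤
          M) →
      ∀ (Y : Type) [MulAction F Y], (∀ (f : F) (y : Y), f • y = y → f = 1) →
      ∀ ρ : G →* Equiv.Perm Y,
        (∀ g : G, ∃ E : Set F, E.Finite ∧ ∀ y : Y, ∃ f ∈ E, ρ g y = f • y) →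
        Finite ρ.range) ∧
    (∀ (F : Type) [Group F] (π : F →* Multiplicative ℤ),
      (∀ Q : Set F, Q.Finite → (∀ q ∈ Q, π q = 1) → (Subgroup.closure Q : Set F).Finite) →
      ∀ (Y : Type) [MulAction F Y], (∀ (f : F) (y : Y), f • y = y → f = 1) →
      ∀ ρ : G →* Equiv.Perm Y,
        (∀ g : G, ∃ E : Set F, E.Finite ∧ ∀ y : Y, ∃ f ∈ E, ρ g y = f • y) →
        Finite ρ.range) := by
  refine ⟨?_, ?_, ?_, ?_, ?_, ?_, ?_, ?_, ?_⟩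
  · intro S hSf hS
    exact boundary_linked.{0, 0} G hG S hSf hS
  · intro S hS
    exact local_cuts.{0, 0} G hG S hS
  · intro S hS
    exact colour.{0, 0} G hG S hS
  · intro S hS
    exact uniform_colour.{0, 0} G hG S hS
  · intro S hS c
    exact uniform_two.{0, 0} G hG S hS c
  · intro X Γ Δ hΔ hdim ρ hρ
    exact asdim_image G hG X Γ Δ hΔ hdim ρ hρ
  · intro X Γ Δ hΔ F hF hFb ρ hρ x hx
    exact local_narrow G hG X Γ Δ hΔ F hF hFb ρ hρ x hx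
  · intro F _ hF Y _ hfree ρ hρ
    exact free_image G hG F hF Y hfree ρ hρ
  · intro F _ π hker Y _ hfree ρ hρ
    exact lfz_image G hG F π hker Y hfree ρ hρ

end Vale.Agent.Results.P192.CoarseBoundaries
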